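import Vale.Agent.P111.Main

open Vale.Agent.P111 in
/-- A real Banach space with the bounded approximation property such that the space and its dual
have finite cotype is `K`-convex. -/
theorem Vale.Agent.Results.P111.CotypeCotype.result
    (X : Type*) [NormedAddCommGroup X] [NormedSpace ℝ X] [CompleteSpace X]
    (hB : HasBAP X) (q r : ℝ) (hq : 2 ≤ q) (hr : 2 ≤ r) (hX : HasCotype X q)
    (hD : HasCotype (StrongDual ℝ X) r) : KConvex X :=
  main hq hr hB hX hD
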